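/-
S0112 (row 84), second integrator track of the assembly (steps I.2-I.6 of `notes/s0112/PROOF.md`).
The per-index core statement consumed by helper2's `final_extraction`, proved from the LANDED
packages (A: helper68 `Calc`, B: helper4 `exists_kernel_bcf`, D: helper5 `exists_smooth_supported'`,
F: helper97 `riemann_window_err` / `grid_windowMean_err`, G: helper62 `exists_phase_good`,
H: helper58 `exists_truncation_min`, glue: helper2) with the Tomita facts C1, C2, C4 and the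
ergodic fact E2 as explicit hypotheses in the coordinator's shapes.
-/
import Mathlib
import Crest.Prelude.Def_ModularData
import Crest.Agent.Helper68.S0112.Calc
import Crest.Agent.Helper4.S0112.Kernel
import Crest.Agent.Helper5.S0112.SmoothD
import Crest.Agent.Helper97.S0112.RiemannWindow
import Crest.Agent.Helper62.S0112.Phases
import Crest.Agent.Helper2.S0112.Glue
import Crest.Agent.Helper58.S0112.Resolvent

set_option autoImplicit false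

namespace Crest.Agent.Helper42.S0112

open Filter MeasureTheory Topology
open scoped InnerProductSpace ComplexConjugate
open Crest.OpAlg

variable {H : Type*} [NormedAddCommGroup H] [InnerProductSpace ℂ H] [CompleteSpace H]

/-! ## The modular flow on the vacuum -/

theorem flow_def (S : ModularDatum H) (t : ℝ) (a : H →L[ℂ] H) :
    S.flow t a = S.D.wave t * a * S.D.wave (-t) := rfl

theorem flow_apply (S : ModularDatum H) (t : ℝ) (a : H →L[ℂ] H) (x : H) :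
    S.flow t a x = S.D.wave t (a (S.D.wave (-t) x)) := rfl

theorem flow_apply_vac (S : ModularDatum H) (hvac : ∀ t : ℝ, S.D.wave t S.vac = S.vac) (t : ℝ)
    (a : H →L[ℂ] H) : S.flow t a S.vac = S.D.wave t (a S.vac) := by
  rw [flow_apply, hvac]

theorem star_flow (S : ModularDatum H) (t : ℝ) (a : H →L[ℂ] H) :
    star (S.flow t a) = S.flow t (star a) := by
  rw [flow_def, flow_def, star_mul, star_mul, Crest.Agent.Helper68.S0112.star_wave,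
    Crest.Agent.Helper68.S0112.star_wave, neg_neg, mul_assoc]

theorem flow_mem (S : ModularDatum H) (t : ℝ) {a : H →L[ℂ] H} (ha : a ∈ S.M) :
    S.flow t a ∈ S.M := S.flow_mem t a ha

/-! ## The normalised sampling family `x_i = N^{-1/2} σ_{t_i}(a)` -/

/-- `x_i = N^{-1/2} σ_{t_i}(a)`. -/
noncomputable def xs (S : ModularDatum H) (a : H →L[ℂ] H) (t : ℕ → ℝ) (N : ℕ) (i : Fin N) :
    H →L[ℂ] H :=
  (((Real.sqrt N)⁻¹ : ℝ) : ℂ) • S.flow (t i) a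

theorem cN_mul (N : ℕ) :
    (((Real.sqrt N)⁻¹ : ℝ) : ℂ) * (((Real.sqrt N)⁻¹ : ℝ) : ℂ) = (((N : ℝ)⁻¹ : ℝ) : ℂ) := by
  rw [← Complex.ofReal_mul, ← mul_inv, Real.mul_self_sqrt (Nat.cast_nonneg N)]

theorem xs_mem (S : ModularDatum H) {a : H →L[ℂ] H} (ha : a ∈ S.M) (t : ℕ → ℝ) (N : ℕ)
    (i : Fin N) : xs S a t N i ∈ S.M := by
  show xs S a t N i ∈ S.M.toStarSubalgebra
  exact SMulMemClass.smul_mem _ (S.flow_mem (t i) a ha)

theorem xs_apply (S : ModularDatum H) (a : H →L[ℂ] H) (t : ℕ → ℝ) (N : ℕ) (i : Fin N) (x : H) :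
    xs S a t N i x = (((Real.sqrt N)⁻¹ : ℝ) : ℂ) • S.flow (t i) a x := rfl

theorem xs_apply_vac (S : ModularDatum H) (hvac : ∀ t : ℝ, S.D.wave t S.vac = S.vac)
    (a : H →L[ℂ] H) (t : ℕ → ℝ) (N : ℕ) (i : Fin N) :
    xs S a t N i S.vac = (((Real.sqrt N)⁻¹ : ℝ) : ℂ) • S.D.wave (t i) (a S.vac) := by
  rw [xs_apply, flow_apply_vac S hvac]

theorem star_xs (S : ModularDatum H) (a : H →L[ℂ] H) (t : ℕ → ℝ) (N : ℕ) (i : Fin N) :
    star (xs S a t N i) = (((Real.sqrt N)⁻¹ : ℝ) : ℂ) • S.flow (t i) (star a) := by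
  unfold xs
  rw [star_smul, star_flow, Complex.star_def, Complex.conj_ofReal]

theorem star_xs_apply_vac (S : ModularDatum H) (hvac : ∀ t : ℝ, S.D.wave t S.vac = S.vac)
    (a : H →L[ℂ] H) (t : ℕ → ℝ) (N : ℕ) (i : Fin N) :
    star (xs S a t N i) S.vac = (((Real.sqrt N)⁻¹ : ℝ) : ℂ) • S.D.wave (t i) (star a S.vac) := by
  rw [star_xs, smul_apply, flow_apply_vac S hvac]

/-- `Σ_i ‖T x_i ξ‖²` is the grid average of `‖T U_t aξ‖²`. -/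
theorem sum_T_xs (S : ModularDatum H) (hvac : ∀ t : ℝ, S.D.wave t S.vac = S.vac)
    (T a : H →L[ℂ] H) (t : ℕ → ℝ) (N : ℕ) :
    ∑ i : Fin N, ‖T (xs S a t N i S.vac)‖ ^ 2 =
      (N : ℝ)⁻¹ * ∑ i ∈ Finset.range N, ‖T (S.D.wave (t i) (a S.vac))‖ ^ 2 := by
  have h1 : ∀ i : Fin N, ‖T (xs S a t N i S.vac)‖ ^ 2 =
      (N : ℝ)⁻¹ * ‖T (S.D.wave (t i) (a S.vac))‖ ^ 2 := by
    intro i
    rw [xs_apply_vac S hvac, map_smul, norm_smul, mul_pow, Complex.norm_real, Real.norm_eq_abs,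
      sq_abs, inv_pow, Real.sq_sqrt (Nat.cast_nonneg N)]
  rw [Finset.sum_congr rfl (fun i _ => h1 i), ← Finset.mul_sum,
    Fin.sum_univ_eq_sum_range (fun i => ‖T (S.D.wave (t i) (a S.vac))‖ ^ 2) N]

/-- `c ξ = (Σ_i x_i* x_i) ξ` is the grid average of `U_t (a* a ξ)`. -/
theorem sum_star_mul_xs (S : ModularDatum H) (hvac : ∀ t : ℝ, S.D.wave t S.vac = S.vac)
    (a : H →L[ℂ] H) (t : ℕ → ℝ) (N : ℕ) :
    (∑ i : Fin N, star (xs S a t N i) * xs S a t N i) S.vac =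
      (N : ℝ)⁻¹ • ∑ i ∈ Finset.range N, S.D.wave (t i) (star a (a S.vac)) := by
  have h1 : ∀ i : Fin N, (star (xs S a t N i) * xs S a t N i) S.vac =
      (N : ℝ)⁻¹ • S.D.wave (t i) (star a (a S.vac)) := by
    intro i
    show star (xs S a t N i) (xs S a t N i S.vac) = _
    rw [star_xs, xs_apply_vac S hvac, map_smul, smul_apply, smul_smul,
      cN_mul, Complex.coe_smul, flow_apply, Crest.Agent.Helper68.S0112.wave_neg_wave]
  rw [sum_apply, Finset.sum_congr rfl (fun i _ => h1 i), ← Finset.smul_sum,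
    Fin.sum_univ_eq_sum_range (fun i => S.D.wave (t i) (star a (a S.vac))) N]

/-- `r ξ = (Σ_i x_i x_i*) ξ` is the grid average of `U_t (a a* ξ)`. -/
theorem sum_mul_star_xs (S : ModularDatum H) (hvac : ∀ t : ℝ, S.D.wave t S.vac = S.vac)
    (a : H →L[ℂ] H) (t : ℕ → ℝ) (N : ℕ) :
    (∑ i : Fin N, xs S a t N i * star (xs S a t N i)) S.vac =
      (N : ℝ)⁻¹ • ∑ i ∈ Finset.range N, S.D.wave (t i) (a (star a S.vac)) := by
  have h1 : ∀ i : Fin N, (xs S a t N i * star (xs S a t N i)) S.vac =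
      (N : ℝ)⁻¹ • S.D.wave (t i) (a (star a S.vac)) := by
    intro i
    show xs S a t N i (star (xs S a t N i) S.vac) = _
    rw [star_xs_apply_vac S hvac, map_smul, xs_apply, smul_smul,
      cN_mul, Complex.coe_smul, flow_apply, Crest.Agent.Helper68.S0112.wave_neg_wave]
  rw [sum_apply, Finset.sum_congr rfl (fun i _ => h1 i), ← Finset.smul_sum,
    Fin.sum_univ_eq_sum_range (fun i => S.D.wave (t i) (a (star a S.vac))) N]

theorem sum_mul_star_xs_mem (S : ModularDatum H) {a : H →L[ℂ] H} (ha : a ∈ S.M) (t : ℕ → ℝ)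
    (N : ℕ) : (∑ i : Fin N, xs S a t N i * star (xs S a t N i)) ∈ S.M := by
  show (∑ i : Fin N, xs S a t N i * star (xs S a t N i)) ∈ S.M.toStarSubalgebra
  exact sum_mem (fun i _ => mul_mem (xs_mem S ha t N i) (star_mem (xs_mem S ha t N i)))

/-- The KMS sum: `Σ_j ⟨x_j ξ, r x_j ξ⟩ = ⟨grid average of U_t w, r ξ⟩`. -/
theorem sum_inner_xs (S : ModularDatum H) (a : H →L[ℂ] H) (w : H)
    (hw : ∀ (t : ℝ) (r : H →L[ℂ] H), r ∈ S.M →
      inner ℂ (S.flow t a S.vac) (r (S.flow t a S.vac)) = inner ℂ (S.D.wave t w) (r S.vac))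
    (t : ℕ → ℝ) (N : ℕ) (r : H →L[ℂ] H) (hr : r ∈ S.M) :
    ∑ j : Fin N, inner ℂ (xs S a t N j S.vac) (r (xs S a t N j S.vac)) =
      inner ℂ ((N : ℝ)⁻¹ • ∑ j ∈ Finset.range N, S.D.wave (t j) w) (r S.vac) := by
  have h1 : ∀ j : Fin N, inner ℂ (xs S a t N j S.vac) (r (xs S a t N j S.vac)) =
      (((N : ℝ)⁻¹ : ℝ) : ℂ) * inner ℂ (S.D.wave (t j) w) (r S.vac) := by
    intro j
    rw [xs_apply, map_smul, inner_smul_left, inner_smul_right, Complex.conj_ofReal, ← mul_assoc,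
      cN_mul, hw (t j) r hr]
  rw [Finset.sum_congr rfl (fun j _ => h1 j), ← Finset.mul_sum,
    Fin.sum_univ_eq_sum_range (fun j => inner ℂ (S.D.wave (t j) w) (r S.vac)) N,
    ← Complex.coe_smul, inner_smul_left, Complex.conj_ofReal, sum_inner]

/-- The phase sums of the sampling family stay in the spectral subspace of `a ξ`. -/
theorem psum_xs_supported (S : ModularDatum H) (hvac : ∀ t : ℝ, S.D.wave t S.vac = S.vac)
    (a : H →L[ℂ] H) (t : ℕ → ℝ) (N : ℕ) (K : Set ℝ) (hK : S.D.SupportedIn K (a S.vac))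
    (θ : Fin N → Fin 4) :
    S.D.SupportedIn K (Crest.Agent.Helper62.S0112.psum (xs S a t N) θ S.vac) := by
  rw [Crest.Agent.Helper62.S0112.psum_apply]
  refine Crest.Agent.Helper68.S0112.supportedIn_sum _ _ (fun i _ => ?_)
  rw [xs_apply_vac S hvac]
  exact Crest.Agent.Helper68.S0112.supportedIn_smul _
    (Crest.Agent.Helper68.S0112.supportedIn_smul _
      (Crest.Agent.Helper68.S0112.supportedIn_wave _ hK))

/-! ## Truncation followed by smoothing (step I.5) -/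

theorem trunc_smooth (S : ModularDatum H) (hvac : ∀ t : ℝ, S.D.wave t S.vac = S.vac)
    (f : ℝ → ℂ) (hf : Integrable f) (F : BoundedContinuousFunction ℝ ℂ)
    (hF : ∀ u, F u = ∫ t, f t * Complex.exp (Complex.I * ((t * u : ℝ) : ℂ)))
    (hF1 : ∀ u, ‖F u‖ ≤ 1) (α β α' β' : ℝ)
    (hone : ∀ u ∈ Set.Icc α β, F u = 1) (hzero : ∀ u, u ∉ Set.Icc α' β' → F u = 0)
    (C₀ : ℝ) (hC₀ : (∫ t, ‖f t‖) ≤ C₀)
    (R : ℝ) (hR : 0 < R) (v : H →L[ℂ] H) (hv : v ∈ S.M)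
    (hsupp : S.D.SupportedIn (Set.Icc α β) (v S.vac)) :
    ∃ v'' : H →L[ℂ] H, v'' ∈ S.M ∧ ‖v''‖ ≤ C₀ * (Real.sqrt R / 2) ∧
      S.D.SupportedIn (Set.Icc α' β') (v'' S.vac) ∧
      ‖v'' S.vac - v S.vac‖ ^ 2 ≤ ‖star v (v S.vac)‖ ^ 2 / (4 * R) := by
  obtain ⟨w, hw1, hw2, hw3⟩ := Crest.Agent.Helper58.S0112.exists_truncation_min v R hR
  obtain ⟨v'', h1, h2, h3, h4, -⟩ :=
    Crest.Agent.Helper5.S0112.exists_smooth_supported' S hvac f hf F hF α' β' hzero (v * w)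
      (hw3 S.M hv)
  refine ⟨v'', h1, ?_, h4, ?_⟩
  · have h0 : 0 ≤ ∫ t, ‖f t‖ := integral_nonneg fun _ => norm_nonneg _
    calc ‖v''‖ ≤ (∫ t, ‖f t‖) * ‖v * w‖ := h2
      _ ≤ C₀ * (Real.sqrt R / 2) := mul_le_mul hC₀ hw1 (norm_nonneg _) (h0.trans hC₀)
  · have hFn : ‖F‖ ≤ 1 := (BoundedContinuousFunction.norm_le zero_le_one).mpr hF1
    have e1 : S.D.apply F (v S.vac) = v S.vac :=
      Crest.Agent.Helper68.S0112.apply_eq_self_of_supportedIn hsupp hone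
    have e2 : v'' S.vac - v S.vac = S.D.apply F ((v * w) S.vac - v S.vac) := by
      rw [map_sub, h3, e1]
    have e3 : ‖v'' S.vac - v S.vac‖ ≤ ‖star v (v S.vac)‖ / (2 * Real.sqrt R) := by
      rw [e2]
      calc ‖S.D.apply F ((v * w) S.vac - v S.vac)‖
          ≤ ‖F‖ * ‖(v * w) S.vac - v S.vac‖ :=
            Crest.Agent.Helper68.S0112.norm_apply_apply_le _ _ _
        _ ≤ 1 * ‖(v * w) S.vac - v S.vac‖ := mul_le_mul_of_nonneg_right hFn (norm_nonneg _)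
        _ = ‖v S.vac - (v * w) S.vac‖ := by rw [one_mul, norm_sub_rev]
        _ ≤ ‖star v (v S.vac)‖ / (2 * Real.sqrt R) := hw2 S.vac
    have e4 : (‖star v (v S.vac)‖ / (2 * Real.sqrt R)) ^ 2
        = ‖star v (v S.vac)‖ ^ 2 / (4 * R) := by
      rw [div_pow, mul_pow, Real.sq_sqrt hR.le]; norm_num
    calc ‖v'' S.vac - v S.vac‖ ^ 2 ≤ (‖star v (v S.vac)‖ / (2 * Real.sqrt R)) ^ 2 :=
          pow_le_pow_left₀ (norm_nonneg _) e3 2
      _ = _ := e4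

/-! ## The approximant `a` (step I.2) -/

theorem exists_band_approx (S : ModularDatum H) (hvac : ∀ t : ℝ, S.D.wave t S.vac = S.vac)
    (f : ℝ → ℂ) (hf : Integrable f) (F : BoundedContinuousFunction ℝ ℂ)
    (hF : ∀ u, F u = ∫ t, f t * Complex.exp (Complex.I * ((t * u : ℝ) : ℂ)))
    (hF1 : ∀ u, ‖F u‖ ≤ 1) (α β α' β' : ℝ)
    (hone : ∀ u ∈ Set.Icc α β, F u = 1) (hzero : ∀ u, u ∉ Set.Icc α' β' → F u = 0)
    (h : H) (hh : S.D.SupportedIn (Set.Icc α β) h) (ε : ℝ) (hε : 0 < ε) :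
    ∃ a : H →L[ℂ] H, a ∈ S.M ∧ S.D.SupportedIn (Set.Icc α' β') (a S.vac) ∧
      S.D.SupportedIn (Set.Icc (-β') (-α')) (star a S.vac) ∧ ‖a S.vac - h‖ ≤ ε := by
  obtain ⟨y, ⟨b, rfl⟩, hb⟩ := S.cyclic.exists_dist_lt h hε
  obtain ⟨a, h1, -, h3, h4, h5⟩ :=
    Crest.Agent.Helper5.S0112.exists_smooth_supported' S hvac f hf F hF α' β' hzero
      (b : H →L[ℂ] H) b.2
  refine ⟨a, h1, h4, h5, ?_⟩
  have hFn : ‖F‖ ≤ 1 := (BoundedContinuousFunction.norm_le zero_le_one).mpr hF1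
  have e1 : S.D.apply F h = h :=
    Crest.Agent.Helper68.S0112.apply_eq_self_of_supportedIn hh hone
  have e2 : a S.vac - h = S.D.apply F ((b : H →L[ℂ] H) S.vac - h) := by
    rw [map_sub, h3, e1]
  rw [e2]
  calc ‖S.D.apply F ((b : H →L[ℂ] H) S.vac - h)‖
      ≤ ‖F‖ * ‖(b : H →L[ℂ] H) S.vac - h‖ :=
        Crest.Agent.Helper68.S0112.norm_apply_apply_le _ _ _
    _ ≤ 1 * ‖(b : H →L[ℂ] H) S.vac - h‖ := mul_le_mul_of_nonneg_right hFn (norm_nonneg _)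
    _ = dist h ((b : H →L[ℂ] H) S.vac) := by rw [one_mul, dist_eq_norm, norm_sub_rev]
    _ ≤ ε := hb.le

/-! ## Ergodic limit + Riemann sums (step I.3) -/

/-- The grid `t_i = -k + 2 k i / N`. -/
noncomputable def tg (k N : ℕ) (i : ℕ) : ℝ := -(k : ℝ) + 2 * (k : ℝ) * (i : ℝ) / (N : ℝ)

theorem ergodic_grid (S : ModularDatum H) (z : H)
    (hE : Tendsto (fun k : ℕ => ((2 * (k : ℝ))⁻¹ : ℝ) • ∫ t in (-(k : ℝ))..(k : ℝ), S.D.wave t z)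
      atTop (𝓝 (inner ℂ S.vac z • S.vac)))
    (e : ℝ) (he : 0 < e) :
    ∃ K : ℕ, ∀ k : ℕ, K ≤ k → 1 ≤ k → ∃ N0 : ℕ, ∀ N : ℕ, N0 ≤ N →
      ‖(N : ℝ)⁻¹ • ∑ i ∈ Finset.range N, S.D.wave (tg k N i) z - inner ℂ S.vac z • S.vac‖
        ≤ 2 * e := by
  obtain ⟨K, hK⟩ := Metric.tendsto_atTop.mp hE e he
  refine ⟨K, fun k hk hk1 => ?_⟩
  have hk' : (0 : ℝ) < (k : ℝ) := by exact_mod_cast hk1
  obtain ⟨N0, -, hN0⟩ := Crest.Agent.Helper97.S0112.riemann_window_err (fun t => S.D.wave t z)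
    (Crest.Agent.Helper68.S0112.continuous_wave_apply S.D z) (k : ℝ) hk' e he
  refine ⟨N0, fun N hN => ?_⟩
  have h1 : ‖(N : ℝ)⁻¹ • ∑ i ∈ Finset.range N, S.D.wave (tg k N i) z -
      (2 * (k : ℝ))⁻¹ • ∫ t in (-(k : ℝ))..(k : ℝ), S.D.wave t z‖ ≤ e := hN0 N hN
  have h2 := hK k hk
  rw [dist_eq_norm] at h2
  calc ‖(N : ℝ)⁻¹ • ∑ i ∈ Finset.range N, S.D.wave (tg k N i) z - inner ℂ S.vac z • S.vac‖
      = ‖((N : ℝ)⁻¹ • ∑ i ∈ Finset.range N, S.D.wave (tg k N i) z -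
          ((2 * (k : ℝ))⁻¹ • ∫ t in (-(k : ℝ))..(k : ℝ), S.D.wave t z)) +
        (((2 * (k : ℝ))⁻¹ • ∫ t in (-(k : ℝ))..(k : ℝ), S.D.wave t z) -
          inner ℂ S.vac z • S.vac)‖ := by rw [sub_add_sub_cancel]
    _ ≤ e + e := (norm_add_le _ _).trans (add_le_add h1 h2.le)
    _ = 2 * e := by ring

/-! ## The per-index core (steps I.2-I.6) -/

/-- **Per-index core.**  From the Tomita facts C1, C2, C4 and the ergodic fact E2 (hypotheses, in the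
coordinator's shapes): for every `c > 0` there are `C` and `η > 0` such that every unit vector `h`
with spectral support in `[s - δ, s + δ]`, `δ ≤ 1`, whose ω-mean is at least `c`, is matched by some
`v ∈ M` with `‖v‖ ≤ C`, `‖T v ξ‖ ≥ η` and `v ξ` supported in `[s - 4δ, s + 4δ]`. -/
theorem core (S : ModularDatum H) (ω : Ultrafilter ℕ) (hω : (ω : Filter ℕ) ≤ atTop)
    (T : H →L[ℂ] H) (s : ℝ)
    (hvac : ∀ t : ℝ, S.D.wave t S.vac = S.vac)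
    (hC2 : ∀ a : H →L[ℂ] H, a ∈ S.M → ∀ α β : ℝ, S.D.SupportedIn (Set.Icc α β) (a S.vac) →
      ‖star a S.vac‖ ≤ Real.exp (β / 2) * ‖a S.vac‖)
    (hC4 : ∀ a : H →L[ℂ] H, a ∈ S.M → ∀ α β : ℝ, S.D.SupportedIn (Set.Icc α β) (star a S.vac) →
      ∃ w : H, inner ℂ S.vac w = ((‖a S.vac‖ ^ 2 : ℝ) : ℂ) ∧
        ∀ (t : ℝ) (r : H →L[ℂ] H), r ∈ S.M →
          inner ℂ (S.flow t a S.vac) (r (S.flow t a S.vac)) = inner ℂ (S.D.wave t w) (r S.vac))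
    (hE2 : ∀ z : H, Tendsto
      (fun k : ℕ => ((2 * (k : ℝ))⁻¹ : ℝ) • ∫ t in (-(k : ℝ))..(k : ℝ), S.D.wave t z)
      atTop (𝓝 (inner ℂ S.vac z • S.vac)))
    (c : ℝ) (hc : 0 < c) :
    ∃ C η : ℝ, 0 < η ∧ ∀ (δ : ℝ) (h : H), 0 < δ → δ ≤ 1 → ‖h‖ = 1 →
      S.D.SupportedIn (Set.Icc (s - δ) (s + δ)) h →
      c ≤ ultraMean ω (fun t : ℝ => ‖T (S.D.wave t h)‖ ^ 2) →
      ∃ v : H →L[ℂ] H, v ∈ S.M ∧ ‖v‖ ≤ C ∧ η ≤ ‖T (v S.vac)‖ ∧
        S.D.SupportedIn (Set.Icc (s - 4 * δ) (s + 4 * δ)) (v S.vac) := by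
  obtain ⟨C₀, -, hker⟩ := Crest.Agent.Helper4.S0112.exists_kernel_bcf
  -- constants
  have hEpos : 0 < Real.exp (s + 2) := Real.exp_pos _
  obtain ⟨Bc, hBc⟩ : ∃ Bc : ℝ, Bc = 9 + 3 * (4 * Real.exp (s + 2) + 1) := ⟨_, rfl⟩
  have hBpos : 0 < Bc := by rw [hBc]; positivity
  have hT1 : 0 < ‖T‖ ^ 2 + 1 := by positivity
  obtain ⟨R, hRdef⟩ : ∃ R : ℝ, R = 2 * (‖T‖ ^ 2 + 1) * Bc / c := ⟨_, rfl⟩
  have hR : 0 < R := by rw [hRdef]; positivity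
  have hRc : c * R = 2 * (‖T‖ ^ 2 + 1) * Bc := by
    rw [hRdef]; field_simp
  refine ⟨C₀ * (Real.sqrt R / 2), Real.sqrt (c / 8), Real.sqrt_pos.mpr (by positivity), ?_⟩
  intro δ h hδ hδ1 hh hband hmean
  -- the two kernels
  obtain ⟨f₁, hf₁, -, F₁, hF₁, hF₁n, hF₁one, hF₁zero⟩ := hker s δ hδ
  obtain ⟨f₃, hf₃, hf₃C, F₃, hF₃, hF₃n, hF₃one, hF₃zero⟩ := hker s (2 * δ) (by positivity)
  have e4a : s - 2 * (2 * δ) = s - 4 * δ := by ring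
  have e4b : s + 2 * (2 * δ) = s + 4 * δ := by ring
  rw [e4a, e4b] at hF₃zero
  -- ε₀ and the approximant `a`
  obtain ⟨ε₀, hε₀pos, hε₀half, hε₀c⟩ :
      ∃ ε₀ : ℝ, 0 < ε₀ ∧ ε₀ ≤ 1 / 2 ∧ ε₀ ≤ c / (24 * (‖T‖ ^ 2 + 1)) :=
    ⟨min (1 / 2) (c / (24 * (‖T‖ ^ 2 + 1))), lt_min (by norm_num) (by positivity),
      min_le_left _ _, min_le_right _ _⟩
  obtain ⟨a, haM, hasupp, hastar, haclose⟩ := exists_band_approx S hvac f₁ hf₁ F₁ hF₁ hF₁n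
    (s - δ) (s + δ) (s - 2 * δ) (s + 2 * δ) hF₁one hF₁zero h hband ε₀ hε₀pos
  have hanorm : ‖a S.vac‖ ≤ 3 / 2 := by
    have h1 : ‖a S.vac‖ ≤ ‖a S.vac - h‖ + ‖h‖ := by
      simpa using norm_add_le (a S.vac - h) h
    linarith
  have hasq : ‖a S.vac‖ ^ 2 ≤ 9 / 4 := by nlinarith [norm_nonneg (a S.vac)]
  have hastar_norm : ‖star a S.vac‖ ^ 2 ≤ Real.exp (s + 2) * (9 / 4) := by
    have h1 := hC2 a haM _ _ hasupp
    have h2 : ‖star a S.vac‖ ^ 2 ≤ (Real.exp ((s + 2 * δ) / 2) * ‖a S.vac‖) ^ 2 :=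
      pow_le_pow_left₀ (norm_nonneg _) h1 2
    have h3 : (Real.exp ((s + 2 * δ) / 2)) ^ 2 = Real.exp (s + 2 * δ) := by
      rw [← Real.exp_nat_mul]; congr 1; push_cast; ring
    have h4 : Real.exp (s + 2 * δ) ≤ Real.exp (s + 2) := Real.exp_le_exp.mpr (by linarith)
    rw [mul_pow, h3] at h2
    calc ‖star a S.vac‖ ^ 2 ≤ Real.exp (s + 2 * δ) * ‖a S.vac‖ ^ 2 := h2
      _ ≤ Real.exp (s + 2) * (9 / 4) := mul_le_mul h4 hasq (by positivity) (Real.exp_pos _).le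
  -- the KMS vector
  obtain ⟨w, hw0, hw⟩ := hC4 a haM _ _ hastar
  -- norms of the three ergodic limits
  have hL₁ : ‖inner ℂ S.vac (star a (a S.vac)) • S.vac‖ ≤ 9 / 4 := by
    rw [norm_smul, S.norm_vac, mul_one, ContinuousLinearMap.star_eq_adjoint,
      ContinuousLinearMap.adjoint_inner_right, inner_self_eq_norm_sq_to_K, norm_pow,
      RCLike.norm_ofReal, abs_norm]
    exact hasq
  have hL₂ : ‖inner ℂ S.vac (a (star a S.vac)) • S.vac‖ ≤ Real.exp (s + 2) * (9 / 4) := by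
    have h1 : inner ℂ S.vac (a (star a S.vac)) = inner ℂ (star a S.vac) (star a S.vac) := by
      rw [ContinuousLinearMap.star_eq_adjoint, ContinuousLinearMap.adjoint_inner_left]
    rw [norm_smul, S.norm_vac, mul_one, h1, inner_self_eq_norm_sq_to_K, norm_pow,
      RCLike.norm_ofReal, abs_norm]
    exact hastar_norm
  have hL₃ : ‖inner ℂ S.vac w • S.vac‖ ≤ 9 / 4 := by
    rw [norm_smul, S.norm_vac, mul_one, hw0, Complex.norm_real, Real.norm_eq_abs,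
      abs_of_nonneg (by positivity)]
    exact hasq
  -- the tolerance `e`
  obtain ⟨e, hepos, he4, hec⟩ : ∃ e : ℝ, 0 < e ∧ e ≤ 1 / 4 ∧ e ≤ c / 8 :=
    ⟨min (1 / 4) (c / 8), lt_min (by norm_num) (by positivity), min_le_left _ _,
      min_le_right _ _⟩
  obtain ⟨K₁, hK₁⟩ := ergodic_grid S (star a (a S.vac)) (hE2 _) e hepos
  obtain ⟨K₂, hK₂⟩ := ergodic_grid S (a (star a S.vac)) (hE2 _) e hepos
  obtain ⟨K₃, hK₃⟩ := ergodic_grid S w (hE2 _) e hepos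
  -- the window `k`
  have hg0 : ∀ t : ℝ, 0 ≤ ‖T (S.D.wave t h)‖ ^ 2 := fun t => by positivity
  have hgB : ∀ t : ℝ, ‖T (S.D.wave t h)‖ ^ 2 ≤ ‖T‖ ^ 2 := fun t => by
    have h1 : ‖T (S.D.wave t h)‖ ≤ ‖T‖ * ‖S.D.wave t h‖ := T.le_opNorm _
    rw [Crest.Agent.Helper68.S0112.norm_wave_apply, hh, mul_one] at h1
    exact pow_le_pow_left₀ (norm_nonneg _) h1 2
  obtain ⟨k, hkK, hk1, hkwin⟩ := Crest.Agent.Helper2.S0112.exists_large_window ω hω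
    (fun t : ℝ => ‖T (S.D.wave t h)‖ ^ 2) (‖T‖ ^ 2) hg0 hgB c hc hmean (max K₁ (max K₂ K₃))
  have hkK₁ : K₁ ≤ k := (le_max_left _ _).trans hkK
  have hkK₂ : K₂ ≤ k := ((le_max_left _ _).trans (le_max_right _ _)).trans hkK
  have hkK₃ : K₃ ≤ k := ((le_max_right _ _).trans (le_max_right _ _)).trans hkK
  -- compare the window means of `h` and `a ξ`
  have hcont : ∀ x : H, Continuous (fun t : ℝ => ‖T (S.D.wave t x)‖ ^ 2) := fun x =>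
    ((T.continuous.comp (Crest.Agent.Helper68.S0112.continuous_wave_apply S.D x)).norm).pow 2
  have hcmp : ∀ t : ℝ,
      ‖T (S.D.wave t h)‖ ^ 2 ≤ ‖T (S.D.wave t (a S.vac))‖ ^ 2 + c / 8 := by
    intro t
    have h1 := Crest.Agent.Helper2.S0112.sq_norm_perturb T (S.D.wave t h) (S.D.wave t (a S.vac))
    rw [← map_sub, Crest.Agent.Helper68.S0112.norm_wave_apply,
      Crest.Agent.Helper68.S0112.norm_wave_apply, Crest.Agent.Helper68.S0112.norm_wave_apply,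
      hh] at h1
    have h2 : ‖h - a S.vac‖ ≤ ε₀ := by rw [norm_sub_rev]; exact haclose
    have hT0 : 0 ≤ ‖T‖ ^ 2 := by positivity
    have h3 : ‖T‖ ^ 2 * (1 + ‖a S.vac‖) * ‖h - a S.vac‖ ≤ ‖T‖ ^ 2 * (5 / 2) * ε₀ :=
      mul_le_mul (mul_le_mul_of_nonneg_left (by linarith) hT0) h2 (norm_nonneg _)
        (by positivity)
    have h5 : ε₀ * (24 * (‖T‖ ^ 2 + 1)) ≤ c := (le_div_iff₀ (by positivity)).mp hε₀c
    have h4 : ‖T‖ ^ 2 * (5 / 2) * ε₀ ≤ c / 8 := by nlinarith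
    have h6 := (abs_le.mp h1).2
    linarith
  have hwin_a : 3 * c / 4 - c / 8 <
      windowMean (fun t : ℝ => ‖T (S.D.wave t (a S.vac))‖ ^ 2) k := by
    have h1 := Crest.Agent.Helper2.S0112.windowMean_le_add _ _ (hcont h) (hcont (a S.vac))
      (c / 8) hcmp k hk1
    linarith
  -- the grid size `N`
  obtain ⟨N₁, hN₁⟩ := hK₁ k hkK₁ hk1
  obtain ⟨N₂, hN₂⟩ := hK₂ k hkK₂ hk1
  obtain ⟨N₃, hN₃⟩ := hK₃ k hkK₃ hk1
  obtain ⟨N₄, hN₄pos, hN₄⟩ := Crest.Agent.Helper97.S0112.grid_windowMean_err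
    (fun t : ℝ => ‖T (S.D.wave t (a S.vac))‖ ^ 2) (hcont (a S.vac)) k
    (Nat.lt_of_lt_of_le Nat.zero_lt_one hk1) e hepos
  obtain ⟨N, hNdef⟩ : ∃ N : ℕ, N = max (max N₁ N₂) (max N₃ N₄) := ⟨_, rfl⟩
  have hNN₁ : N₁ ≤ N := by rw [hNdef]; exact (le_max_left _ _).trans (le_max_left _ _)
  have hNN₂ : N₂ ≤ N := by rw [hNdef]; exact (le_max_right _ _).trans (le_max_left _ _)
  have hNN₃ : N₃ ≤ N := by rw [hNdef]; exact (le_max_left _ _).trans (le_max_right _ _)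
  have hNN₄ : N₄ ≤ N := by rw [hNdef]; exact (le_max_right _ _).trans (le_max_right _ _)
  -- the three grid averages
  obtain ⟨A₁, hA₁def⟩ : ∃ A : H,
      A = (N : ℝ)⁻¹ • ∑ i ∈ Finset.range N, S.D.wave (tg k N i) (star a (a S.vac)) := ⟨_, rfl⟩
  obtain ⟨A₂, hA₂def⟩ : ∃ A : H,
      A = (N : ℝ)⁻¹ • ∑ i ∈ Finset.range N, S.D.wave (tg k N i) (a (star a S.vac)) := ⟨_, rfl⟩
  obtain ⟨A₃, hA₃def⟩ : ∃ A : H,
      A = (N : ℝ)⁻¹ • ∑ i ∈ Finset.range N, S.D.wave (tg k N i) w := ⟨_, rfl⟩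
  have hA₁ := hN₁ N hNN₁
  have hA₂ := hN₂ N hNN₂
  have hA₃ := hN₃ N hNN₃
  rw [← hA₁def] at hA₁
  rw [← hA₂def] at hA₂
  rw [← hA₃def] at hA₃
  have hA₁n : ‖A₁‖ ≤ 3 := by
    have h1 := norm_sub_norm_le A₁ (inner ℂ S.vac (star a (a S.vac)) • S.vac)
    linarith
  have hA₂n : ‖A₂‖ ≤ 4 * Real.exp (s + 2) + 1 := by
    have h1 := norm_sub_norm_le A₂ (inner ℂ S.vac (a (star a S.vac)) • S.vac)
    linarith
  have hA₃n : ‖A₃‖ ≤ 3 := by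
    have h1 := norm_sub_norm_le A₃ (inner ℂ S.vac w • S.vac)
    linarith
  have hBound : ‖A₁‖ ^ 2 + ‖A₃‖ * ‖A₂‖ ≤ Bc := by
    have h1 : ‖A₁‖ ^ 2 ≤ 9 := by nlinarith [norm_nonneg A₁]
    have h2 : ‖A₃‖ * ‖A₂‖ ≤ 3 * (4 * Real.exp (s + 2) + 1) :=
      mul_le_mul hA₃n hA₂n (norm_nonneg _) (by norm_num)
    rw [hBc]; linarith
  -- the grid average of `‖T U_t a ξ‖²`
  have hS₁ : c / 2 ≤
      (N : ℝ)⁻¹ * ∑ i ∈ Finset.range N, ‖T (S.D.wave (tg k N i) (a S.vac))‖ ^ 2 := by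
    have h1 : |(N : ℝ)⁻¹ * ∑ i ∈ Finset.range N, ‖T (S.D.wave (tg k N i) (a S.vac))‖ ^ 2 -
        windowMean (fun t : ℝ => ‖T (S.D.wave t (a S.vac))‖ ^ 2) k| ≤ e := hN₄ N hNN₄
    have h2 := (abs_le.mp h1).1
    linarith
  -- the sampling family and its phase sums
  have hxM : ∀ i : Fin N, xs S a (tg k N) N i ∈ S.M := fun i => xs_mem S haM (tg k N) N i
  have hΦex : ∀ v : H →L[ℂ] H, ∃ v'' : H →L[ℂ] H,
      v ∈ S.M → S.D.SupportedIn (Set.Icc (s - 2 * δ) (s + 2 * δ)) (v S.vac) →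
        (v'' ∈ S.M ∧ ‖v''‖ ≤ C₀ * (Real.sqrt R / 2) ∧
          S.D.SupportedIn (Set.Icc (s - 4 * δ) (s + 4 * δ)) (v'' S.vac) ∧
          ‖v'' S.vac - v S.vac‖ ^ 2 ≤ ‖star v (v S.vac)‖ ^ 2 / (4 * R)) := by
    intro v
    by_cases hv : v ∈ S.M ∧ S.D.SupportedIn (Set.Icc (s - 2 * δ) (s + 2 * δ)) (v S.vac)
    · obtain ⟨v'', h1⟩ := trunc_smooth S hvac f₃ hf₃ F₃ hF₃ hF₃n (s - 2 * δ) (s + 2 * δ)
        (s - 4 * δ) (s + 4 * δ) hF₃one hF₃zero C₀ hf₃C R hR v hv.1 hv.2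
      exact ⟨v'', fun _ _ => h1⟩
    · exact ⟨0, fun h1 h2 => absurd ⟨h1, h2⟩ hv⟩
  choose G hG using hΦex
  have hGθ := fun θ : Fin N → Fin 4 =>
    hG (Crest.Agent.Helper62.S0112.psum (xs S a (tg k N) N) θ)
      (Crest.Agent.Helper62.S0112.psum_mem_vN _ θ S.M hxM)
      (psum_xs_supported S hvac a (tg k N) N _ hasupp θ)
  obtain ⟨θ, hθ⟩ := Crest.Agent.Helper62.S0112.exists_phase_good (xs S a (tg k N) N) T S.vac
    (fun v => G v S.vac) R hR (fun θ => (hGθ θ).2.2.2)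
  obtain ⟨hv1, hv2, hv3, -⟩ := hGθ θ
  refine ⟨G (Crest.Agent.Helper62.S0112.psum (xs S a (tg k N) N) θ), hv1, hv2, ?_, hv3⟩
  -- the lower bound
  have hr : (∑ i : Fin N, xs S a (tg k N) N i * star (xs S a (tg k N) N i)) ∈ S.M :=
    sum_mul_star_xs_mem S haM (tg k N) N
  have e1 : ∑ i : Fin N, ‖T (xs S a (tg k N) N i S.vac)‖ ^ 2 =
      (N : ℝ)⁻¹ * ∑ i ∈ Finset.range N, ‖T (S.D.wave (tg k N i) (a S.vac))‖ ^ 2 :=
    sum_T_xs S hvac T a (tg k N) N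
  have e2 : (∑ i : Fin N, star (xs S a (tg k N) N i) * xs S a (tg k N) N i) S.vac = A₁ := by
    rw [hA₁def]; exact sum_star_mul_xs S hvac a (tg k N) N
  have e3 : ∑ j : Fin N, (inner ℂ (xs S a (tg k N) N j S.vac)
      ((∑ i : Fin N, xs S a (tg k N) N i * star (xs S a (tg k N) N i))
        (xs S a (tg k N) N j S.vac))).re = (inner ℂ A₃ A₂).re := by
    rw [← Complex.re_sum, sum_inner_xs S a w hw (tg k N) N _ hr, sum_mul_star_xs S hvac,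
      hA₃def, hA₂def]
  rw [e1, e2, e3] at hθ
  have hre : (inner ℂ A₃ A₂).re ≤ ‖A₃‖ * ‖A₂‖ :=
    (Complex.re_le_norm _).trans (norm_inner_le_norm A₃ A₂)
  have hK0 : 0 ≤ ‖T‖ ^ 2 / (2 * R) := by positivity
  have hKB : ‖T‖ ^ 2 / (2 * R) * Bc ≤ c / 4 := by
    rw [div_mul_eq_mul_div, div_le_iff₀ (by positivity)]
    have h1 : c / 4 * (2 * R) = (c * R) / 2 := by ring
    have h2 : 2 * (‖T‖ ^ 2 + 1) * Bc / 2 = ‖T‖ ^ 2 * Bc + Bc := by ring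
    rw [h1, hRc, h2]
    linarith
  have hQ : ‖T‖ ^ 2 / (2 * R) * (‖A₁‖ ^ 2 + (inner ℂ A₃ A₂).re) ≤ c / 4 :=
    (mul_le_mul_of_nonneg_left (by linarith) hK0).trans hKB
  have hfin : c / 8 ≤ ‖T (G (Crest.Agent.Helper62.S0112.psum (xs S a (tg k N) N) θ) S.vac)‖ ^ 2 := by
    have hθ' : ((N : ℝ)⁻¹ * ∑ i ∈ Finset.range N, ‖T (S.D.wave (tg k N i) (a S.vac))‖ ^ 2 -
        ‖T‖ ^ 2 / (2 * R) * (‖A₁‖ ^ 2 + (inner ℂ A₃ A₂).re)) / 2 ≤
        ‖T (G (Crest.Agent.Helper62.S0112.psum (xs S a (tg k N) N) θ) S.vac)‖ ^ 2 := hθ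
    linarith
  calc Real.sqrt (c / 8)
      ≤ Real.sqrt (‖T (G (Crest.Agent.Helper62.S0112.psum (xs S a (tg k N) N) θ) S.vac)‖ ^ 2) :=
        Real.sqrt_le_sqrt hfin
    _ = ‖T (G (Crest.Agent.Helper62.S0112.psum (xs S a (tg k N) N) θ) S.vac)‖ :=
        Real.sqrt_sq (norm_nonneg _)

/-- **S0112 from the packages.**  The conclusion of `Crest.Agent.S0112.result` verbatim, from the
Tomita facts C1 (`hvac`), C2 (`hC2`), C4 (`hC4`) and the ergodic fact E2 (`hE2`) in the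
coordinator's shapes; everything else is taken from landed packages. -/
theorem result_of_packages (S : ModularDatum H)
    (ω : Ultrafilter ℕ) (hω : (ω : Filter ℕ) ≤ Filter.atTop)
    (T : H →L[ℂ] H) (s : ℝ) (δ : ℕ → ℝ) (hδ : ∀ n, 0 < δ n)
    (hδ0 : Filter.Tendsto δ Filter.atTop (nhds 0))
    (h : ℕ → H) (hh : ∀ n, ‖h n‖ = 1)
    (hband : ∀ n, S.D.SupportedIn (Set.Icc (s - δ n) (s + δ n)) (h n))
    (hpos : ∃ c : ℝ, 0 < c ∧ ∃ᶠ n in Filter.atTop,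
      c ≤ Crest.OpAlg.ultraMean ω (fun t : ℝ => ‖T (S.D.wave t (h n))‖ ^ 2))
    (hvac : ∀ t : ℝ, S.D.wave t S.vac = S.vac)
    (hC2 : ∀ a : H →L[ℂ] H, a ∈ S.M → ∀ α β : ℝ, S.D.SupportedIn (Set.Icc α β) (a S.vac) →
      ‖star a S.vac‖ ≤ Real.exp (β / 2) * ‖a S.vac‖)
    (hC4 : ∀ a : H →L[ℂ] H, a ∈ S.M → ∀ α β : ℝ, S.D.SupportedIn (Set.Icc α β) (star a S.vac) →
      ∃ w : H, inner ℂ S.vac w = ((‖a S.vac‖ ^ 2 : ℝ) : ℂ) ∧
        ∀ (t : ℝ) (r : H →L[ℂ] H), r ∈ S.M →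
          inner ℂ (S.flow t a S.vac) (r (S.flow t a S.vac)) = inner ℂ (S.D.wave t w) (r S.vac))
    (hE2 : ∀ z : H, Tendsto
      (fun k : ℕ => ((2 * (k : ℝ))⁻¹ : ℝ) • ∫ t in (-(k : ℝ))..(k : ℝ), S.D.wave t z)
      atTop (𝓝 (inner ℂ S.vac z • S.vac))) :
    ∃ (n' : ℕ → ℕ) (v : ℕ → (H →L[ℂ] H)) (C η : ℝ), StrictMono n' ∧ 0 < η ∧
      ∀ j : ℕ, v j ∈ S.M ∧ ‖v j‖ ≤ C ∧ η ≤ ‖T (v j S.vac)‖ ∧
        S.D.SupportedIn (Set.Icc (s - 4 * δ (n' j)) (s + 4 * δ (n' j))) (v j S.vac) := by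
  refine Crest.Agent.Helper2.S0112.final_extraction S ω T s δ hδ0 h hpos (fun c hc => ?_)
  obtain ⟨C, η, hη, hcore⟩ := core S ω hω T s hvac hC2 hC4 hE2 c hc
  exact ⟨C, η, hη, fun n hδn hcn => hcore (δ n) (h n) (hδ n) hδn (hh n) (hband n) hcn⟩

end Crest.Agent.Helper42.S0112
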