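/-
S0112 (row 84), independent second closure (insurance only; `Crest/Agent/S0112.lean` on main is
helper49's).  The frozen statement of S0112, proved from `Helper42.S0112.result_of_packages` with
C1/C2/C4 taken from helper2's `Vac.lean` / `Kms.lean` and E2 from helper79's `E2Final.lean`.
-/
import Mathlib
import Crest.Prelude.Def_ModularData
import Crest.Agent.Helper42.S0112.Core
import Crest.Agent.Helper2.S0112.Kms
import Crest.Agent.Helper79.S0112.E2Final

set_option autoImplicit false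

namespace Crest.Agent.Helper42.S0112

variable {H : Type*} [NormedAddCommGroup H] [InnerProductSpace ℂ H] [CompleteSpace H]

/-- The statement of S0112 (bounded recovery), second closure. -/
theorem final
    (S : Crest.OpAlg.ModularDatum H) (herg : S.Ergodic)
    (ω : Ultrafilter ℕ) (hω : (ω : Filter ℕ) ≤ Filter.atTop)
    (T : H →L[ℂ] H) (s : ℝ) (δ : ℕ → ℝ) (hδ : ∀ n, 0 < δ n)
    (hδ0 : Filter.Tendsto δ Filter.atTop (nhds 0))
    (h : ℕ → H) (hh : ∀ n, ‖h n‖ = 1)
    (hband : ∀ n, S.D.SupportedIn (Set.Icc (s - δ n) (s + δ n)) (h n))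
    (hpos : ∃ c : ℝ, 0 < c ∧ ∃ᶠ n in Filter.atTop,
      c ≤ Crest.OpAlg.ultraMean ω (fun t : ℝ => ‖T (S.D.wave t (h n))‖ ^ 2)) :
    ∃ (n' : ℕ → ℕ) (v : ℕ → (H →L[ℂ] H)) (C η : ℝ), StrictMono n' ∧ 0 < η ∧
      ∀ j : ℕ, v j ∈ S.M ∧ ‖v j‖ ≤ C ∧ η ≤ ‖T (v j S.vac)‖ ∧
        S.D.SupportedIn (Set.Icc (s - 4 * δ (n' j)) (s + 4 * δ (n' j))) (v j S.vac) :=
  result_of_packages S ω hω T s δ hδ hδ0 h hh hband hpos
    (Crest.Agent.Helper2.S0112.wave_vac S)
    (Crest.Agent.Helper2.S0112.norm_star_vac_le S)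
    (Crest.Agent.Helper2.S0112.kms_vector S)
    (Crest.Agent.Helper79.S0112.window_tendsto_final S herg)

end Crest.Agent.Helper42.S0112
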